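import Crest.Agent.R331.Out.Defs

/-!
# Row 331, block Out: positive kernels and Fock states
-/

set_option autoImplicit false

namespace Crest.Agent.R331.Out

open Crest.MathPhysics.Bosonic Crest.Quantum Filter Topology
open scoped ComplexOrder

/-- The entries of a Fock state form a positive kernel. -/
theorem kpsd_entry {n : ℕ} (ρ : FockState n) : KPsd (entry ρ.op) := by
  intro s x
  have h := ρ.pos.inner_nonneg_right (∑ k ∈ s, x k • ket k)
  rw [map_sum, sum_inner] at h
  refine h.trans_eq (Finset.sum_congr rfl fun k _ => ?_)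
  rw [inner_sum]
  refine Finset.sum_congr rfl fun l _ => ?_
  rw [map_smul, inner_smul_left, inner_smul_right, entry]
  ring

/-- The extension by zero of a positive matrix is a positive kernel. -/
theorem kpsd_ext {n M : ℕ} {σ : Matrix (Box n M) (Box n M) ℂ} (hσ : σ.PosSemidef) :
    KPsd (ext σ) := by
  classical
  intro s x
  have h := hσ.dotProduct_mulVec_nonneg fun k => if emb k ∈ s then x (emb k) else 0
  refine h.trans_eq ?_
  have key : ∀ f : Occ n → ℂ, (∀ k, ¬ (∀ j, k j ≤ M) → f k = 0) →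
      ∑ k ∈ s, f k = ∑ k : Box n M, if emb k ∈ s then f (emb k) else 0 := fun f hf => by
    rw [← Finset.sum_filter, ← Finset.sum_image (s := Finset.univ.filter fun k : Box n M => emb k ∈ s) (g := emb)
      (f := f) emb_injective.injOn]
    refine (Finset.sum_subset (fun k hk => ?_) fun k hk hk' => hf k fun h => hk' ?_).symm
    · obtain ⟨k', h1, rfl⟩ := Finset.mem_image.1 hk
      exact (Finset.mem_filter.1 h1).2
    · exact Finset.mem_image.2 ⟨toBox M k h, Finset.mem_filter.2 ⟨Finset.mem_univ _, hk⟩, rfl⟩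
  rw [key _ fun k hk => Finset.sum_eq_zero fun l _ => by rw [ext_of_not σ fun h => hk h.1, mul_zero, zero_mul]]
  simp only [dotProduct, Matrix.mulVec, Pi.star_apply]
  refine Finset.sum_congr rfl fun k _ => ?_
  rw [key _ fun l hl => by rw [ext_of_not σ fun h => hl h.2, mul_zero, zero_mul]]
  split_ifs with hk
  · rw [Finset.mul_sum]
    refine Finset.sum_congr rfl fun l _ => ?_
    split_ifs with hl
    · rw [ext_emb, mul_assoc]; rfl
    · simp
  · simp

theorem KPsd.diag {n : ℕ} {c : Occ n → Occ n → ℂ} (hc : KPsd c) (k : Occ n) : 0 ≤ c k k := by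
  simpa using hc {k} fun _ => 1

theorem KPsd.two {n : ℕ} {c : Occ n → Occ n → ℂ} (hc : KPsd c) {k l : Occ n} (h : k ≠ l) (a b : ℂ) :
    0 ≤ (starRingEnd ℂ) a * c k k * a + (starRingEnd ℂ) a * c k l * b +
      ((starRingEnd ℂ) b * c l k * a + (starRingEnd ℂ) b * c l l * b) := by
  classical
  have h1 := hc {k, l} fun m => if m = k then a else b
  simp only [Finset.sum_pair h, if_neg h.symm, if_true] at h1
  exact h1

/-- a positive kernel is hermitian -/
theorem KPsd.herm {n : ℕ} {c : Occ n → Occ n → ℂ} (hc : KPsd c) (k l : Occ n) :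
    c l k = (starRingEnd ℂ) (c k l) := by
  have hd : ∀ k, (c k k).im = 0 := fun k => (Complex.nonneg_iff.1 (hc.diag k)).2.symm
  by_cases h : k = l
  · subst h
    exact (Complex.conj_eq_iff_im.2 (hd k)).symm
  · have h1 := (Complex.nonneg_iff.1 (hc.two h 1 1)).2
    have h2 := (Complex.nonneg_iff.1 (hc.two h 1 Complex.I)).2
    simp [hd] at h1 h2
    apply Complex.ext <;> simp <;> linarith

theorem KPsd.diag_nonneg {n : ℕ} {c : Occ n → Occ n → ℂ} (hc : KPsd c) (k : Occ n) :
    0 ≤ (c k k).re := by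
  exact (Complex.nonneg_iff.1 (hc.diag k)).1

/-- Cauchy-Schwarz for a positive kernel. -/
theorem KPsd.norm_sq_le {n : ℕ} {c : Occ n → Occ n → ℂ} (hc : KPsd c) (k l : Occ n) :
    ‖c k l‖ ^ 2 ≤ (c k k).re * (c l l).re := by
  have hd : ∀ k, (c k k).im = 0 := fun k => (Complex.nonneg_iff.1 (hc.diag k)).2.symm
  rw [Complex.sq_norm, Complex.normSq_apply]
  by_cases h : k = l
  · subst h
    simp [hd]
  set N := (c k l).re * (c k l).re + (c k l).im * (c k l).im with hN
  have h1 : ∀ t : ℝ, 0 ≤ (N * (c k k).re) * (t * t) + (2 * N) * t + (c l l).re := fun t => by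
    have h2 := (Complex.nonneg_iff.1 (hc.two h (t * c k l) 1)).1
    rw [hc.herm k l] at h2
    simp [hd] at h2
    refine h2.trans_eq ?_
    rw [hN]
    ring
  have h2 := discrim_le_zero h1
  rw [discrim] at h2
  have h3 : 0 ≤ N := add_nonneg (mul_self_nonneg _) (mul_self_nonneg _)
  rcases h3.eq_or_lt with h4 | h4
  · rw [← h4]
    exact mul_nonneg (hc.diag_nonneg k) (hc.diag_nonneg l)
  · refine le_of_mul_le_mul_left ?_ h4
    nlinarith

/-- The restriction of a positive kernel to a box is a positive matrix. -/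
theorem KPsd.posSemidef {n : ℕ} {c : Occ n → Occ n → ℂ} (hc : KPsd c) (M : ℕ) :
    (Matrix.of fun k l : Box n M => c (emb k) (emb l)).PosSemidef := by
  classical
  refine .of_dotProduct_mulVec_nonneg ?_ fun x => ?_
  · ext k l
    simp only [Matrix.conjTranspose_apply, Matrix.of_apply]
    exact (hc.herm _ _).symm
  · have h := hc (Finset.univ.image (emb : Box n M → Occ n)) (Function.extend emb x 0)
    simp only [Finset.sum_image emb_injective.injOn, emb_injective.extend_apply] at h
    refine h.trans_eq ?_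
    simp only [dotProduct, Matrix.mulVec, Pi.star_apply, Matrix.of_apply, Finset.mul_sum, mul_assoc]
    rfl

/-- A family bounded by `C * d k` in square with `Σ d = 1` is a vector of norm at most `√C`. -/
theorem kerb_vec {n : ℕ} {d : Occ n → ℝ} (hd : ∀ k, 0 ≤ d k) (h1 : HasSum d 1) {u : Occ n → ℂ} {C : ℝ}
    (hC : 0 ≤ C) (hu : ∀ k, ‖u k‖ ^ 2 ≤ C * d k) : ∃ v : Fock n, (∀ k, v k = u k) ∧ ‖v‖ ^ 2 ≤ C := by
  have h2 : ∀ s : Finset (Occ n), ∑ k ∈ s, ‖u k‖ ^ (2 : ENNReal).toReal ≤ C := fun s => by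
    simp only [ENNReal.toReal_ofNat, Real.rpow_ofNat]
    refine (Finset.sum_le_sum fun k _ => hu k).trans ?_
    rw [← Finset.mul_sum]
    exact mul_le_of_le_one_right hC (sum_le_hasSum s (fun k _ => hd k) h1)
  refine ⟨⟨u, memℓp_gen' h2⟩, fun _ => rfl, ?_⟩
  have h3 := lp.norm_le_of_forall_sum_le (p := 2) (by norm_num) (Real.sqrt_nonneg C)
    (f := (⟨u, memℓp_gen' h2⟩ : Fock n)) fun s => (h2 s).trans_eq (by simp [Real.sq_sqrt hC])
  exact (pow_le_pow_left₀ (norm_nonneg _) h3 2).trans_eq (Real.sq_sqrt hC)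

/-- A positive kernel of trace one is the kernel of a Fock state. -/
theorem exists_state_of_kernel {n : ℕ} {c : Occ n → Occ n → ℂ} (hc : KPsd c)
    (h1 : HasSum (fun k => (c k k).re) 1) : ∃ ρ : FockState n, ∀ k l, entry ρ.op k l = c k l := by

  choose row hrow hn using fun k => kerb_vec hc.diag_nonneg h1 (u := fun l => (starRingEnd ℂ) (c k l))
    (hc.diag_nonneg k) fun l => by rw [Complex.norm_conj]; exact hc.norm_sq_le k l
  choose T hT hTn using fun x : Fock n => kerb_vec hc.diag_nonneg h1 (u := fun k => inner ℂ (row k) x)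
    (sq_nonneg ‖x‖) fun k => (pow_le_pow_left₀ (norm_nonneg _) (norm_inner_le_norm _ _) 2).trans (by
      rw [mul_pow, mul_comm]
      exact mul_le_mul_of_nonneg_left (hn k) (sq_nonneg _))
  let L : Fock n →ₗ[ℂ] Fock n :=
    { toFun := T
      map_add' := fun x y => lp.ext (funext fun k => by simp [hT])
      map_smul' := fun a x => lp.ext (funext fun k => by simp [hT]) }
  let S : Fock n →L[ℂ] Fock n := L.mkContinuous 1 fun x => by
    rw [one_mul]
    exact (pow_le_pow_iff_left₀ (norm_nonneg _) (norm_nonneg _) two_ne_zero).1 (hTn x)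
  have hS : ∀ (k l : Occ n) (a b : ℂ), inner ℂ (lp.single 2 k a : Fock n) (S (lp.single 2 l b)) =
      (starRingEnd ℂ) a * c k l * b := fun k l a b => by
    rw [lp.inner_single_left]
    change inner ℂ a (T (lp.single 2 l b) k) = _
    rw [hT, lp.inner_single_right, hrow]
    simp only [RCLike.inner_apply, RCLike.conj_conj]
    ring
  have he : ∀ k l, entry S k l = c k l := fun k l => by
    rw [entry, ket, ket, hS]
    simp
  have hp : ∀ x, 0 ≤ inner ℂ x (S x) := fun x => by
    have h2 := (lp.hasSum_single (p := 2) (by norm_num) x)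
    have h3 : Continuous fun y : Fock n => inner ℂ y (S y) := continuous_id.inner S.continuous
    refine ge_of_tendsto' ((h3.tendsto x).comp h2) fun s => ?_
    simp only [Function.comp_apply, map_sum, sum_inner, inner_sum, hS]
    rw [Finset.sum_comm]
    exact hc s x
  refine ⟨⟨S, (ContinuousLinearMap.isPositive_iff_complex S).2 fun x => ?_, by simpa only [he] using h1⟩, he⟩
  obtain ⟨h2, h3⟩ := Complex.nonneg_iff.1 (hp x)
  rw [← inner_conj_symm]
  generalize inner ℂ x (S x) = z at h2 h3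
  refine ⟨Complex.ext ?_ ?_, ?_⟩
  · simp
  · simp [← h3]
  · simpa using h2


theorem kernelc_lim {ι : Type} {w : ι → ℝ} (hw0 : ∀ k, 0 ≤ w k) (hw : ∀ L : ℝ, {k | w k ≤ L}.Finite)
    {d : ℕ → ι → ℝ} {R : ℝ} (hd : ∀ᶠ K in atTop, (∀ k, 0 ≤ d K k) ∧ HasSum (d K) 1 ∧
      ∃ E ≤ R, HasSum (fun k => w k * d K k) E) {c : ι → ℝ} (hc : ∀ k, Tendsto (fun K => d K k) atTop (𝓝 (c k))) :
    HasSum c 1 ∧ Summable fun k => w k * c k := by
  classical
  have c0 : ∀ k, 0 ≤ c k := fun k => ge_of_tendsto (hc k) (hd.mono fun K h => h.1 k)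
  have h1 : ∀ s : Finset ι, ∑ k ∈ s, c k ≤ 1 := fun s =>
    le_of_tendsto (tendsto_finsetSum s fun k _ => hc k) (hd.mono fun K h => sum_le_hasSum s (fun k _ => h.1 k) h.2.1)
  have h2 : ∀ s : Finset ι, ∑ k ∈ s, w k * c k ≤ R := fun s =>
    le_of_tendsto (tendsto_finsetSum s fun k _ => (hc k).const_mul (w k)) (hd.mono fun K ⟨h, _, E, hE, hs⟩ =>
      (sum_le_hasSum s (fun k _ => mul_nonneg (hw0 k) (h k)) hs).trans hE)
  have hs := summable_of_sum_le c0 h1
  refine ⟨?_, summable_of_sum_le (fun k => mul_nonneg (hw0 k) (c0 k)) h2⟩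
  have h3 : ∀ L : ℝ, 0 < L → 1 ≤ ∑' k, c k + R / L := fun L hL => by
    have h4 : 1 - R / L ≤ ∑ k ∈ (hw L).toFinset, c k := by
      refine ge_of_tendsto (tendsto_finsetSum _ fun k _ => hc k) (hd.mono fun K ⟨h, h5, E, hE, h6⟩ => ?_)
      have h7 : HasSum (fun k => if k ∈ (hw L).toFinset then d K k else 0)
          (∑ k ∈ (hw L).toFinset, if k ∈ (hw L).toFinset then d K k else 0) :=
        hasSum_sum_of_ne_finset_zero fun k hk => if_neg hk
      rw [Finset.sum_congr rfl fun k hk => if_pos hk] at h7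
      have h8 := hasSum_le (fun k => ?_) h5 (h7.add (h6.div_const L))
      · linarith [div_le_div_of_nonneg_right hE hL.le]
      · split_ifs with hk
        · exact le_add_of_nonneg_right (div_nonneg (mul_nonneg (hw0 k) (h k)) hL.le)
        · rw [Set.Finite.mem_toFinset, Set.mem_setOf_eq, not_le] at hk
          rw [zero_add, le_div_iff₀ hL, mul_comm]
          exact mul_le_mul_of_nonneg_right hk.le (h k)
    linarith [hs.sum_le_tsum (hw L).toFinset fun k _ => c0 k]
  have h4 : 1 ≤ ∑' k, c k + 0 :=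
    ge_of_tendsto (tendsto_const_nhds.add (tendsto_const_nhds.div_atTop tendsto_id))
      ((eventually_gt_atTop 0).mono h3)
  have h5 : ∑' k, c k = 1 := le_antisymm (hs.tsum_le_of_sum_le h1) (by linarith)
  exact h5 ▸ hs.hasSum

theorem kernelc_sum {n M : ℕ} (σ : Matrix (Box n M) (Box n M) ℂ) (w : Occ n → ℝ) :
    HasSum (fun k => w k * (ext σ k k).re) (∑ k : Box n M, w (emb k) * (σ k k).re) := by
  refine (emb_injective (M := M).hasSum_iff fun k hk => ?_).1 ?_
  · rw [ext_of_not σ fun h => hk ⟨toBox M k h.1, rfl⟩]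
    simp
  · simpa [Function.comp_def] using hasSum_fintype fun k : Box n M => w (emb k) * (σ k k).re

/-- Entrywise limits of density matrices of bounded energy are Fock states of finite energy. -/
theorem state_of_limit {n : ℕ} (M : ℕ → ℕ) (σ : ∀ K, Matrix (Box n (M K)) (Box n (M K)) ℂ)
    (R : ℝ) (hσ : ∀ᶠ K in atTop, IsDensity (σ K) ∧ energy (σ K) ≤ R) (c : Occ n → Occ n → ℂ)
    (hc : ∀ k l, Tendsto (fun K => ext (σ K) k l) atTop (𝓝 (c k l))) :
    ∃ ρ : FockState n, (∀ k l, entry ρ.op k l = c k l) ∧ FiniteEnergy ρ := by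
  have hp : KPsd c := fun s x =>
    ge_of_tendsto (tendsto_finsetSum s fun k _ => tendsto_finsetSum s fun l _ => ((hc k l).const_mul _).mul_const _)
      (hσ.mono fun K h => kpsd_ext h.1.1 s x)
  obtain ⟨h1, h2⟩ := kernelc_lim (w := fun k : Occ n => ((∑ j, k j : ℕ) : ℝ)) (d := fun K k => (ext (σ K) k k).re)
    (R := R) (c := fun k => (c k k).re) (fun k => Nat.cast_nonneg _)
    (fun L => (Set.Finite.pi' fun _ : Fin n => Set.finite_Iic ⌊L⌋₊).subset fun k hk j =>
      Nat.le_floor (le_trans (Nat.cast_le.2 (Finset.single_le_sum (fun _ _ => Nat.zero_le _) (Finset.mem_univ j))) hk))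
    (hσ.mono fun K h => ⟨(kpsd_ext h.1.1).diag_nonneg, by
      have h3 := kernelc_sum (σ K) fun _ => 1
      have h4 := congrArg Complex.re h.1.2
      simp only [Matrix.trace, Matrix.diag, Complex.re_sum, Complex.one_re] at h4
      simpa only [one_mul, h4] using h3, _, h.2, kernelc_sum (σ K) _⟩)
    fun k => (Complex.continuous_re.tendsto _).comp (hc k k)
  obtain ⟨ρ, hρ⟩ := exists_state_of_kernel hp h1
  exact ⟨ρ, hρ, by simpa only [FiniteEnergy, hρ] using h2⟩

end Crest.Agent.R331.Out
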