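import Crest.Agent.R331.Out.Defs

/-!
# Row 331, block Out: orthogonality of the beam-splitter amplitudes
-/

set_option autoImplicit false

namespace Crest.Agent.R331.Out

open Crest.MathPhysics.Bosonic Crest.Quantum

theorem bsAmp_eq_zero (η : ℝ) {k l p q : ℕ} (h : p + q ≠ k + l) : bsAmp η k l p q = 0 := by
  unfold bsAmp
  rw [if_neg h]

/-- The coefficient of `x ^ p * y ^ (k + l - p)` in `(α x - β y) ^ k * (β x + α y) ^ l`. -/
noncomputable def ampa_c (α β : ℝ) (k l p : ℕ) : ℝ :=
  ∑ i ∈ Finset.range (k + 1),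
    if i ≤ p ∧ p - i ≤ l then
      (Nat.choose k i * Nat.choose l (p - i) : ℕ) *
        (α ^ i * (-β) ^ (k - i) * β ^ (p - i) * α ^ (l - (p - i)))
    else 0

theorem ampa_hom (α β x y : ℝ) (k l : ℕ) : (α * x - β * y) ^ k * (β * x + α * y) ^ l =
    ∑ p ∈ Finset.range (k + l + 1), ampa_c α β k l p * (x ^ p * y ^ (k + l - p)) := by
  simp only [ampa_c, Finset.sum_mul]
  rw [Finset.sum_comm, sub_eq_add_neg, add_pow, add_pow, Finset.sum_mul]
  refine Finset.sum_congr rfl fun i hi => ?_
  have hik : i ≤ k := Nat.lt_succ_iff.1 (Finset.mem_range.1 hi)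
  simp only [ite_mul, zero_mul]
  rw [← Finset.sum_filter, Finset.mul_sum]
  refine Finset.sum_nbij' (fun j => i + j) (fun p => p - i) ?_ ?_ ?_ ?_ ?_
  · intro j hj
    simp only [Finset.mem_range, Finset.mem_filter] at hj ⊢
    omega
  · intro p hp
    simp only [Finset.mem_range, Finset.mem_filter] at hp ⊢
    omega
  · intro j _
    simp
  · intro p hp
    simp only [Finset.mem_range, Finset.mem_filter] at hp
    omega
  · intro j hj
    have hjl : j ≤ l := Nat.lt_succ_iff.1 (Finset.mem_range.1 hj)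
    rw [Nat.add_sub_cancel_left, show k + l - (i + j) = (k - i) + (l - j) by omega, ← neg_mul]
    simp only [mul_pow, pow_add]
    push_cast
    ring

theorem ampa_hom' (α β x y : ℝ) {a m : ℕ} (ha : a ≤ m) : (α * x - β * y) ^ a * (β * x + α * y) ^ (m - a) =
    ∑ p ∈ Finset.range (m + 1), ampa_c α β a (m - a) p * (x ^ p * y ^ (m - p)) := by
  have h := ampa_hom α β x y a (m - a)
  rwa [Nat.add_sub_cancel' ha] at h

theorem ampa_coeff {n : ℕ} {f g : ℕ → ℝ}
    (h : ∀ x : ℝ, ∑ p ∈ Finset.range n, f p * x ^ p = ∑ p ∈ Finset.range n, g p * x ^ p) {p : ℕ} (hp : p < n) :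
    f p = g p := by
  have h1 : (∑ p ∈ Finset.range n, Polynomial.monomial p (f p) : Polynomial ℝ) =
      ∑ p ∈ Finset.range n, Polynomial.monomial p (g p) :=
    Polynomial.funext fun x => by simpa [Polynomial.eval_finsetSum] using h x
  have h2 := congrArg (fun P : Polynomial ℝ => P.coeff p) h1
  simpa [Polynomial.finsetSum_coeff, Polynomial.coeff_monomial, hp] using h2

theorem ampa_inv {α β : ℝ} (h : α ^ 2 + β ^ 2 = 1) {m a b : ℕ} (ha : a ≤ m) (hb : b ≤ m) :
    ∑ p ∈ Finset.range (m + 1), ampa_c α β a (m - a) p * ampa_c α (-β) p (m - p) b = if a = b then 1 else 0 := by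
  refine ampa_coeff (f := fun b => ∑ p ∈ Finset.range (m + 1), ampa_c α β a (m - a) p * ampa_c α (-β) p (m - p) b)
    (g := fun b => if a = b then 1 else 0) (fun s => ?_) (Nat.lt_succ_of_le hb)
  have h1 := ampa_hom' α β (α * s - -β * 1) (-β * s + α * 1) ha
  rw [show α * (α * s - -β * 1) - β * (-β * s + α * 1) = s by linear_combination s * h,
    show β * (α * s - -β * 1) + α * (-β * s + α * 1) = 1 by linear_combination h, one_pow, mul_one] at h1
  have h2 : ∑ b ∈ Finset.range (m + 1), (if a = b then 1 else 0) * s ^ b = s ^ a := by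
    simp [Nat.lt_succ_of_le ha]
  rw [h2, h1]
  simp only [Finset.sum_mul]
  rw [Finset.sum_comm]
  refine Finset.sum_congr rfl fun p hp => ?_
  rw [ampa_hom' α (-β) s 1 (Nat.lt_succ_iff.1 (Finset.mem_range.1 hp)), Finset.mul_sum]
  refine Finset.sum_congr rfl fun b _ => ?_
  rw [one_pow, mul_one, mul_assoc]

theorem ampa_symm (α β : ℝ) {m b p : ℕ} (hb : b ≤ m) (hp : p ≤ m) :
    (m.choose b : ℝ) * ampa_c α β b (m - b) p = m.choose p * ampa_c α (-β) p (m - p) b := by
  refine ampa_coeff (f := fun b => (m.choose b : ℝ) * ampa_c α β b (m - b) p)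
    (g := fun b => m.choose p * ampa_c α (-β) p (m - p) b) (fun s => ?_) (Nat.lt_succ_of_le hb)
  refine ampa_coeff (f := fun p => ∑ b ∈ Finset.range (m + 1), (m.choose b : ℝ) * ampa_c α β b (m - b) p * s ^ b)
    (g := fun p => ∑ b ∈ Finset.range (m + 1), m.choose p * ampa_c α (-β) p (m - p) b * s ^ b) (fun x => ?_)
    (Nat.lt_succ_of_le hp)
  have h1 : (s * (α * x - β * 1) + (β * x + α * 1)) ^ m = (x * (α * s - -β * 1) + (-β * s + α * 1)) ^ m := by
    congr 1
    ring
  rw [add_pow, add_pow] at h1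
  simp only [Finset.sum_mul]
  rw [Finset.sum_comm]
  refine Eq.trans (Finset.sum_congr rfl fun b hb => ?_) (h1.trans (Finset.sum_congr rfl fun p hp => ?_))
  · rw [mul_pow, mul_assoc (s ^ b), ampa_hom' α β x 1 (Nat.lt_succ_iff.1 (Finset.mem_range.1 hb)), Finset.mul_sum,
      Finset.sum_mul]
    refine Finset.sum_congr rfl fun p _ => ?_
    rw [one_pow]
    ring
  · rw [mul_pow, mul_assoc (x ^ p), ampa_hom' α (-β) s 1 (Nat.lt_succ_iff.1 (Finset.mem_range.1 hp)), Finset.mul_sum,
      Finset.sum_mul]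
    refine Finset.sum_congr rfl fun b _ => ?_
    rw [one_pow]
    ring

theorem ampa_symm' (α β : ℝ) {m b p : ℕ} (hb : b ≤ m) (hp : p ≤ m) :
    ((p.factorial * (m - p).factorial : ℕ) : ℝ) * ampa_c α β b (m - b) p =
      ((b.factorial * (m - b).factorial : ℕ) : ℝ) * ampa_c α (-β) p (m - p) b := by
  have h1 : (m.choose b : ℝ) * ((b.factorial * (m - b).factorial : ℕ) : ℝ) = m.factorial := by
    rw [← Nat.choose_mul_factorial_mul_factorial hb]; push_cast; ring
  have h2 : (m.choose p : ℝ) * ((p.factorial * (m - p).factorial : ℕ) : ℝ) = m.factorial := by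
    rw [← Nat.choose_mul_factorial_mul_factorial hp]; push_cast; ring
  have h3 := ampa_symm α β hb hp
  have h4 : (m.factorial : ℝ) ≠ 0 := by exact_mod_cast m.factorial_ne_zero
  refine mul_left_cancel₀ h4 ?_
  linear_combination (((p.factorial * (m - p).factorial : ℕ) : ℝ) * ((b.factorial * (m - b).factorial : ℕ) : ℝ)) * h3 -
    (((p.factorial * (m - p).factorial : ℕ) : ℝ) * ampa_c α β b (m - b) p) * h1 +
    (((b.factorial * (m - b).factorial : ℕ) : ℝ) * ampa_c α (-β) p (m - p) b) * h2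

theorem ampa_eq (η : ℝ) {m a p : ℕ} (ha : a ≤ m) (hp : p ≤ m) : bsAmp η a (m - a) p (m - p) =
    Real.sqrt (((p.factorial * (m - p).factorial : ℕ) : ℝ) / ((a.factorial * (m - a).factorial : ℕ) : ℝ)) *
      ampa_c (Real.sqrt η) (Real.sqrt (1 - η)) a (m - a) p := by
  unfold bsAmp
  rw [if_pos (by omega)]
  rfl

/-- Column orthogonality in one mode pair at total occupation `m`. -/
theorem amp_col {η : ℝ} (hη : η ∈ Set.Icc (0 : ℝ) 1) (m a b : ℕ) (ha : a ≤ m) (hb : b ≤ m) :
    ∑ p ∈ Finset.range (m + 1), bsAmp η a (m - a) p (m - p) * bsAmp η b (m - b) p (m - p)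
      = if a = b then 1 else 0 := by
  have h : Real.sqrt η ^ 2 + Real.sqrt (1 - η) ^ 2 = 1 := by
    rw [Real.sq_sqrt hη.1, Real.sq_sqrt (sub_nonneg.2 hη.2)]
    ring
  set A : ℝ := ((a.factorial * (m - a).factorial : ℕ) : ℝ) with hA
  set B : ℝ := ((b.factorial * (m - b).factorial : ℕ) : ℝ) with hB
  have hB0 : 0 < B := by rw [hB]; positivity
  have h1 : ∀ p ∈ Finset.range (m + 1), bsAmp η a (m - a) p (m - p) * bsAmp η b (m - b) p (m - p) =
      B / (Real.sqrt A * Real.sqrt B) * (ampa_c (Real.sqrt η) (Real.sqrt (1 - η)) a (m - a) p *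
        ampa_c (Real.sqrt η) (-Real.sqrt (1 - η)) p (m - p) b) := by
    intro p hp
    have hp' : p ≤ m := Nat.lt_succ_iff.1 (Finset.mem_range.1 hp)
    have h2 := ampa_symm' (Real.sqrt η) (Real.sqrt (1 - η)) hb hp'
    have h3 := Real.mul_self_sqrt (Nat.cast_nonneg (α := ℝ) (p.factorial * (m - p).factorial))
    rw [ampa_eq η ha hp', ampa_eq η hb hp', Real.sqrt_div (Nat.cast_nonneg _), Real.sqrt_div (Nat.cast_nonneg _),
      ← hA, ← hB]
    rw [← hB, ← h3] at h2
    linear_combination (ampa_c (Real.sqrt η) (Real.sqrt (1 - η)) a (m - a) p / (Real.sqrt A * Real.sqrt B)) * h2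
  rw [Finset.sum_congr rfl h1, ← Finset.mul_sum, ampa_inv h ha hb]
  split_ifs with hab
  · subst hab
    rw [show A = B from rfl, Real.mul_self_sqrt hB0.le, div_self hB0.ne', mul_one]
  · rw [mul_zero]

/-- Row normalisation in one mode pair (a square real matrix with orthonormal columns has
orthonormal rows). -/
theorem amp_row {η : ℝ} (hη : η ∈ Set.Icc (0 : ℝ) 1) (p q : ℕ) :
    ∑ a ∈ Finset.range (p + q + 1), bsAmp η a (p + q - a) p q ^ 2 = 1 := by
  set m := p + q with hm
  let U : Matrix (Fin (m + 1)) (Fin (m + 1)) ℝ := Matrix.of fun a r => bsAmp η a (m - a) r (m - r)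
  have h1 : U * U.transpose = 1 := by
    ext a b
    have := amp_col hη m a b (Nat.le_of_lt_succ a.2) (Nat.le_of_lt_succ b.2)
    rw [Finset.sum_range fun r => bsAmp η a (m - a) r (m - r) * bsAmp η b (m - b) r (m - r)] at this
    simp only [Matrix.mul_apply, Matrix.transpose_apply, U, Matrix.of_apply, this, Matrix.one_apply, Fin.ext_iff]
  have h1' : U.transpose * U = 1 := mul_eq_one_comm.1 h1
  have h2 := congrFun (congrFun h1' ⟨p, by omega⟩) ⟨p, by omega⟩
  simp only [Matrix.mul_apply, Matrix.transpose_apply, U, Matrix.of_apply, Matrix.one_apply_eq,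
    show m - p = q by omega] at h2
  rw [Finset.sum_range fun a => bsAmp η a (m - a) p q ^ 2, ← h2]
  exact Finset.sum_congr rfl fun a _ => sq _

/-- Column orthogonality in one mode pair, summed over a square of outputs. -/
theorem amp_orth {η : ℝ} (hη : η ∈ Set.Icc (0 : ℝ) 1) (M k l k' l' : ℕ) (hM : k + l ≤ M) :
    ∑ p ∈ Finset.range (M + 1), ∑ q ∈ Finset.range (M + 1),
      bsAmp η k l p q * bsAmp η k' l' p q = if k = k' ∧ l = l' then 1 else 0 := by
  by_cases h : k + l = k' + l'
  · have h1 := amp_col hη (k + l) k k' (by omega) (by omega)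
    rw [show k + l - k = l by omega, show k + l - k' = l' by omega] at h1
    have h2 : (if k = k' ∧ l = l' then (1 : ℝ) else 0) = if k = k' then 1 else 0 :=
      if_congr (by omega) rfl rfl
    rw [h2, ← h1]
    symm
    refine Finset.sum_subset_zero_on_sdiff (Finset.range_subset_range.2 (by omega)) (fun p hp => ?_) fun p hp => ?_
    · simp only [Finset.mem_sdiff, Finset.mem_range] at hp
      exact Finset.sum_eq_zero fun q _ => by rw [bsAmp_eq_zero η (by omega), zero_mul]
    · rw [Finset.mem_range] at hp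
      symm
      refine Finset.sum_eq_single_of_mem _ (Finset.mem_range.2 (by omega)) fun q _ hq => ?_
      rw [bsAmp_eq_zero η (by omega), zero_mul]
  · rw [if_neg (by omega)]
    refine Finset.sum_eq_zero fun p _ => Finset.sum_eq_zero fun q _ => ?_
    by_cases h' : p + q = k + l
    · rw [bsAmp_eq_zero η (k := k') (by omega), mul_zero]
    · rw [bsAmp_eq_zero η h', zero_mul]

/-- Row normalisation for `n` mode pairs. -/
theorem ampOcc_row {n : ℕ} {η : ℝ} (hη : η ∈ Set.Icc (0 : ℝ) 1) (k e : Occ n) :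
    ∑ a : Splitting (k + e), ampOcc η a.fst a.snd k e ^ 2 = 1 := by
  have h := Fintype.prod_sum (fun (j : Fin n) (a : Fin ((k + e) j + 1)) =>
    bsAmp η a ((k + e) j - a) (k j) (e j) ^ 2)
  simp only [ampOcc, Splitting.fst, Splitting.snd, ← Finset.prod_pow]
  rw [← h]
  refine Finset.prod_eq_one fun j _ => ?_
  rw [← amp_row hη (k j) (e j), Finset.sum_range fun a => bsAmp η a (k j + e j - a) (k j) (e j) ^ 2]
  rfl

/-- Column orthogonality for `n` mode pairs on boxes. -/
theorem bsAmpN_orth {n K : ℕ} {η : ℝ} (hη : η ∈ Set.Icc (0 : ℝ) 1) (k l k' l' : Box n K) :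
    ∑ p : Box n (2 * K), ∑ q : Box n (2 * K), bsAmpN η k l p q * bsAmpN η k' l' p q
      = if k = k' ∧ l = l' then 1 else 0 := by
  have h1 : ∀ p : Box n (2 * K), ∑ q : Box n (2 * K), bsAmpN η k l p q * bsAmpN η k' l' p q =
      ∏ j, ∑ q : Fin (2 * K + 1), bsAmp η (k j) (l j) (p j) q * bsAmp η (k' j) (l' j) (p j) q := fun p => by
    rw [Fintype.prod_sum]
    simp only [bsAmpN, Finset.prod_mul_distrib]
  simp only [h1]
  rw [← Fintype.prod_sum fun (j : Fin n) (p : Fin (2 * K + 1)) =>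
    ∑ q : Fin (2 * K + 1), bsAmp η (k j) (l j) p q * bsAmp η (k' j) (l' j) p q]
  have h2 : ∀ j, ∑ p : Fin (2 * K + 1), ∑ q : Fin (2 * K + 1),
      bsAmp η (k j) (l j) p q * bsAmp η (k' j) (l' j) p q = if k j = k' j ∧ l j = l' j then 1 else 0 := fun j => by
    have := amp_orth hη (2 * K) (k j) (l j) (k' j) (l' j) (by have := (k j).2; have := (l j).2; omega)
    simp only [Finset.sum_range, Fin.val_inj] at this
    exact this
  simp only [h2, Fintype.prod_ite_zero, Finset.prod_const_one]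
  exact if_congr ⟨fun h => ⟨funext fun j => (h j).1, funext fun j => (h j).2⟩,
    fun h j => ⟨congrFun h.1 j, congrFun h.2 j⟩⟩ rfl rfl

end Crest.Agent.R331.Out
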