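import Crest.Agent.R331.Out.Kernel
import Crest.Agent.R331.Out.Amp

/-!
# Row 331, block Out: bounds on the output blocks
-/

set_option autoImplicit false

namespace Crest.Agent.R331.Out

open Crest.MathPhysics.Bosonic Crest.Quantum Filter Topology
open scoped ComplexOrder

/-- Cauchy-Schwarz bound on a block. -/
theorem norm_blk_le {n : ℕ} {η : ℝ} (hη : η ∈ Set.Icc (0 : ℝ) 1) {cA cB : Occ n → Occ n → ℂ}
    (hA : KPsd cA) (hB : KPsd cB) (k l e : Occ n) :
    ‖blk η cA cB k l e‖ ≤ (pm cA cB (k + e) + pm cA cB (l + e)) / 2 := by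
  have key : ∀ (a : Splitting (k + e)) (b : Splitting (l + e)),
      ‖(ampOcc η a.fst a.snd k e : ℂ) * cA a.fst b.fst * cB a.snd b.snd * (ampOcc η b.fst b.snd l e : ℂ)‖ ≤
        ((cA a.fst a.fst).re * (cB a.snd a.snd).re * ampOcc η b.fst b.snd l e ^ 2 +
          ampOcc η a.fst a.snd k e ^ 2 * ((cA b.fst b.fst).re * (cB b.snd b.snd).re)) / 2 := by
    intro a b
    have h1 := hA.norm_sq_le a.fst b.fst
    have h2 := hB.norm_sq_le a.snd b.snd
    have a1 := hA.diag_nonneg a.fst
    have a2 := hA.diag_nonneg b.fst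
    have b1 := hB.diag_nonneg a.snd
    have b2 := hB.diag_nonneg b.snd
    refine abs_le_of_sq_le_sq' ?_ (by positivity) |>.2
    rw [norm_mul, norm_mul, norm_mul, Complex.norm_real, Complex.norm_real, Real.norm_eq_abs, Real.norm_eq_abs,
      mul_pow, mul_pow, mul_pow, sq_abs, sq_abs]
    set x := ampOcc η a.fst a.snd k e ^ 2
    set y := ampOcc η b.fst b.snd l e ^ 2
    have hx : 0 ≤ x := sq_nonneg _
    have hy : 0 ≤ y := sq_nonneg _
    have h3 : x * ‖cA a.fst b.fst‖ ^ 2 * ‖cB a.snd b.snd‖ ^ 2 * y ≤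
        x * ((cA a.fst a.fst).re * (cA b.fst b.fst).re) * ((cB a.snd a.snd).re * (cB b.snd b.snd).re) * y := by
      gcongr
    nlinarith [sq_nonneg ((cA a.fst a.fst).re * (cB a.snd a.snd).re * y - x * ((cA b.fst b.fst).re * (cB b.snd b.snd).re))]
  unfold blk
  refine (norm_sum_le _ _).trans ((Finset.sum_le_sum fun a _ => (norm_sum_le _ _).trans
    (Finset.sum_le_sum fun b _ => key a b)).trans (le_of_eq ?_))
  simp only [← Finset.sum_div, Finset.sum_add_distrib, ← Finset.mul_sum, ← Finset.sum_mul, ampOcc_row hη, mul_one,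
    one_mul, pm]

/-- The law of the total occupation is summable. -/
theorem summable_pm {n : ℕ} (ρA ρB : FockState n) :
    Summable (pm (entry ρA.op) (entry ρB.op)) := by
  have hF : Summable fun x : Occ n × Occ n => (entry ρA.op x.1 x.1).re * (entry ρB.op x.2 x.2).re :=
    ρA.traceOne.summable.mul_of_nonneg ρB.traceOne.summable (fun k => (kpsd_entry ρA).diag_nonneg k)
      fun k => (kpsd_entry ρB).diag_nonneg k
  have hi : Function.Injective fun x : (Σ m : Occ n, Splitting m) => (x.2.fst, x.2.snd) := by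
    rintro ⟨m, a⟩ ⟨m', b⟩ h
    simp only [Prod.mk.injEq] at h
    have hm : m = m' := funext fun j => by
      have h1 : (a j : ℕ) = b j := congrFun h.1 j
      have h2 : m j - a j = m' j - b j := congrFun h.2 j
      have := (a j).2
      have := (b j).2
      omega
    subst hm
    have : a = b := funext fun j => Fin.ext (congrFun h.1 j)
    rw [this]
  have := (hF.comp_injective hi).sigma
  simp only [tsum_fintype] at this
  exact this

end Crest.Agent.R331.Out
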