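import Crest.Agent.R331.Out.Amp

/-!
# Row 331, block Out: the finite-dimensional output `bsOutput`
-/

set_option autoImplicit false

namespace Crest.Agent.R331.Out

open Crest.MathPhysics.Bosonic Crest.Quantum Filter Topology
open scoped ComplexOrder

/-- The isometry component at discarded occupation `q`. -/
noncomputable def finA_V {n K : ℕ} (η : ℝ) (q : Box n (2 * K)) :
    Matrix (Box n (2 * K)) (Box n K × Box n K) ℂ :=
  Matrix.of fun p kl => (bsAmpN η kl.1 kl.2 p q : ℂ)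

/-- The diagonal term. -/
noncomputable def finA_T {n K : ℕ} (η : ℝ) (σA σB : Matrix (Box n K) (Box n K) ℂ)
    (p q : Box n (2 * K)) : ℂ :=
  ∑ k : Box n K, ∑ l : Box n K, ∑ k' : Box n K, ∑ l' : Box n K,
    (bsAmpN η k l p q : ℂ) * σA k k' * σB l l' * (bsAmpN η k' l' p q : ℂ)

open scoped Kronecker in
theorem finA_entry {n K : ℕ} (η : ℝ) (σA σB : Matrix (Box n K) (Box n K) ℂ)
    (q p p' : Box n (2 * K)) :
    (finA_V η q * (σA ⊗ₖ σB) * (finA_V η q).conjTranspose) p p'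
      = ∑ k : Box n K, ∑ l : Box n K, ∑ k' : Box n K, ∑ l' : Box n K,
          (bsAmpN η k l p q : ℂ) * σA k k' * σB l l' * (bsAmpN η k' l' p' q : ℂ) := by
  simp only [Matrix.mul_apply, Matrix.conjTranspose_apply, finA_V, Matrix.of_apply,
    Matrix.kroneckerMap_apply, Finset.sum_mul, Complex.star_def, Complex.conj_ofReal]
  rw [Finset.sum_comm, Fintype.sum_prod_type]
  refine Finset.sum_congr rfl fun k _ => Finset.sum_congr rfl fun l _ => ?_
  rw [Fintype.sum_prod_type]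
  refine Finset.sum_congr rfl fun k' _ => Finset.sum_congr rfl fun l' _ => ?_
  ring

open scoped Kronecker in
theorem finA_eq {n K : ℕ} (η : ℝ) (σA σB : Matrix (Box n K) (Box n K) ℂ) :
    bsOutput η σA σB
      = ∑ q : Box n (2 * K), finA_V η q * (σA ⊗ₖ σB) * (finA_V η q).conjTranspose := by
  ext p p'
  rw [Matrix.sum_apply]
  simp only [finA_entry]
  rfl

open scoped Kronecker in
theorem finA_psd {n K : ℕ} (η : ℝ) {σA σB : Matrix (Box n K) (Box n K) ℂ}
    (hA : σA.PosSemidef) (hB : σB.PosSemidef) (q : Box n (2 * K)) :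
    (finA_V η q * (σA ⊗ₖ σB) * (finA_V η q).conjTranspose).PosSemidef :=
  (hA.kronecker hB).mul_mul_conjTranspose_same _

theorem finA_T_nonneg {n K : ℕ} (η : ℝ) {σA σB : Matrix (Box n K) (Box n K) ℂ}
    (hA : σA.PosSemidef) (hB : σB.PosSemidef) (p q : Box n (2 * K)) :
    0 ≤ finA_T η σA σB p q := by
  have h := (finA_psd η hA hB q).diag_nonneg (i := p)
  rw [finA_entry] at h
  exact h

theorem finA_comm6 {α β γ : Type*} [Fintype α] [Fintype β] [AddCommMonoid γ]
    (f : α → α → β → β → β → β → γ) :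
    ∑ p, ∑ q, ∑ k, ∑ l, ∑ k', ∑ l', f p q k l k' l'
      = ∑ k, ∑ l, ∑ k', ∑ l', ∑ p, ∑ q, f p q k l k' l' := by
  have h1 : ∀ g : α → α → β → γ, ∑ p, ∑ q, ∑ k, g p q k = ∑ k, ∑ p, ∑ q, g p q k := by
    intro g
    calc ∑ p, ∑ q, ∑ k, g p q k = ∑ p, ∑ k, ∑ q, g p q k :=
          Finset.sum_congr rfl fun p _ => Finset.sum_comm
      _ = ∑ k, ∑ p, ∑ q, g p q k := Finset.sum_comm
  rw [h1]
  refine Finset.sum_congr rfl fun k _ => ?_
  rw [h1]
  refine Finset.sum_congr rfl fun l _ => ?_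
  rw [h1]
  refine Finset.sum_congr rfl fun k' _ => ?_
  rw [h1]

theorem finA_sum {n K : ℕ} {η : ℝ} (hη : η ∈ Set.Icc (0 : ℝ) 1)
    (σA σB : Matrix (Box n K) (Box n K) ℂ) (w : Box n K → Box n K → ℂ) :
    ∑ p : Box n (2 * K), ∑ q : Box n (2 * K),
      ∑ k : Box n K, ∑ l : Box n K, ∑ k' : Box n K, ∑ l' : Box n K,
        w k l * ((bsAmpN η k l p q : ℂ) * σA k k' * σB l l' * (bsAmpN η k' l' p q : ℂ))
      = ∑ k : Box n K, ∑ l : Box n K, w k l * (σA k k * σB l l) := by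
  rw [finA_comm6]
  refine Finset.sum_congr rfl fun k _ => Finset.sum_congr rfl fun l _ => ?_
  have h : ∀ k' l' : Box n K, ∑ p : Box n (2 * K), ∑ q : Box n (2 * K),
      w k l * ((bsAmpN η k l p q : ℂ) * σA k k' * σB l l' * (bsAmpN η k' l' p q : ℂ))
      = if k = k' ∧ l = l' then w k l * (σA k k' * σB l l') else 0 := by
    intro k' l'
    have ho := congrArg (fun x : ℝ => (x : ℂ)) (bsAmpN_orth hη k l k' l')
    simp only [Complex.ofReal_sum, Complex.ofReal_mul] at ho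
    calc _ = w k l * (σA k k' * σB l l') * ∑ p : Box n (2 * K), ∑ q : Box n (2 * K),
          (bsAmpN η k l p q : ℂ) * (bsAmpN η k' l' p q : ℂ) := by
          rw [Finset.mul_sum]
          refine Finset.sum_congr rfl fun p _ => ?_
          rw [Finset.mul_sum]
          refine Finset.sum_congr rfl fun q _ => ?_
          ring
      _ = _ := by
          rw [ho]
          split_ifs <;> simp
  simp only [h]
  rw [Finset.sum_eq_single k, Finset.sum_eq_single l]
  · simp
  · intro b _ hb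
    rw [if_neg (fun hh => hb hh.2.symm)]
  · simp
  · intro b _ hb
    refine Finset.sum_eq_zero fun l' _ => ?_
    rw [if_neg (fun hh => hb hh.1.symm)]
  · simp

theorem finA_cons {n K : ℕ} (η : ℝ) (k l : Box n K) (p q : Box n (2 * K)) :
    (((∑ j, (p j : ℕ) : ℕ) : ℂ) + ((∑ j, (q j : ℕ) : ℕ) : ℂ)) * (bsAmpN η k l p q : ℂ)
      = (((∑ j, (k j : ℕ) : ℕ) : ℂ) + ((∑ j, (l j : ℕ) : ℕ) : ℂ)) * (bsAmpN η k l p q : ℂ) := by
  by_cases h : ∀ j, (p j : ℕ) + q j = k j + l j
  · congr 1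
    rw [← Nat.cast_add, ← Nat.cast_add, ← Finset.sum_add_distrib, ← Finset.sum_add_distrib]
    exact congrArg _ (Finset.sum_congr rfl fun j _ => h j)
  · push Not at h
    obtain ⟨j, hj⟩ := h
    have : bsAmpN η k l p q = 0 := by
      unfold bsAmpN
      exact Finset.prod_eq_zero (Finset.mem_univ j) (bsAmp_eq_zero η hj)
    rw [this]
    simp

theorem bsOutput_density {n K : ℕ} {η : ℝ} (hη : η ∈ Set.Icc (0 : ℝ) 1)
    {σA σB : Matrix (Box n K) (Box n K) ℂ} (hA : IsDensity σA) (hB : IsDensity σB) :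
    IsDensity (bsOutput η σA σB) := by
  refine ⟨?_, ?_⟩
  · rw [finA_eq]
    exact Matrix.posSemidef_sum _ fun q _ => finA_psd η hA.1 hB.1 q
  · have h := finA_sum hη σA σB (fun _ _ => 1)
    simp only [one_mul] at h
    have h2 : (bsOutput η σA σB).trace = ∑ p, ∑ q, finA_T η σA σB p q := by
      simp only [Matrix.trace, Matrix.diag, bsOutput, Matrix.of_apply, finA_T]
    rw [h2]
    unfold finA_T
    rw [h, ← Finset.sum_mul_sum]
    have ha : ∑ k, σA k k = 1 := hA.2
    have hb : ∑ k, σB k k = 1 := hB.2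
    rw [ha, hb, one_mul]

theorem bsOutput_energy {n K : ℕ} {η : ℝ} (hη : η ∈ Set.Icc (0 : ℝ) 1)
    {σA σB : Matrix (Box n K) (Box n K) ℂ} (hA : IsDensity σA) (hB : IsDensity σB) :
    energy (M := 2 * K) (bsOutput η σA σB) ≤ energy σA + energy σB := by
  have ha : ∑ k, σA k k = 1 := hA.2
  have hb : ∑ k, σB k k = 1 := hB.2
  have h := finA_sum hη σA σB
    (fun k l => ((∑ j, (k j : ℕ) : ℕ) : ℂ) + ((∑ j, (l j : ℕ) : ℕ) : ℂ))
  have hL : ∑ p : Box n (2 * K), ∑ q : Box n (2 * K),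
      (((∑ j, (p j : ℕ) : ℕ) : ℂ) + ((∑ j, (q j : ℕ) : ℕ) : ℂ)) * finA_T η σA σB p q
      = ∑ k : Box n K, ∑ l : Box n K,
        (((∑ j, (k j : ℕ) : ℕ) : ℂ) + ((∑ j, (l j : ℕ) : ℕ) : ℂ)) * (σA k k * σB l l) := by
    rw [← h]
    refine Finset.sum_congr rfl fun p _ => Finset.sum_congr rfl fun q _ => ?_
    unfold finA_T
    simp only [Finset.mul_sum]
    refine Finset.sum_congr rfl fun k _ => Finset.sum_congr rfl fun l _ =>
      Finset.sum_congr rfl fun k' _ => Finset.sum_congr rfl fun l' _ => ?_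
    have := finA_cons η k l p q
    linear_combination (σA k k' * σB l l' * (bsAmpN η k' l' p q : ℂ)) * this
  have hR : ∑ k : Box n K, ∑ l : Box n K,
        (((∑ j, (k j : ℕ) : ℕ) : ℂ) + ((∑ j, (l j : ℕ) : ℕ) : ℂ)) * (σA k k * σB l l)
      = ∑ k : Box n K, ((∑ j, (k j : ℕ) : ℕ) : ℂ) * σA k k
        + ∑ l : Box n K, ((∑ j, (l j : ℕ) : ℕ) : ℂ) * σB l l := by
    have e1 : ∑ k : Box n K, ((∑ j, (k j : ℕ) : ℕ) : ℂ) * σA k k
        = ∑ k : Box n K, ∑ l : Box n K, ((∑ j, (k j : ℕ) : ℕ) : ℂ) * (σA k k * σB l l) := by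
      refine Finset.sum_congr rfl fun k _ => ?_
      rw [← Finset.mul_sum, ← Finset.mul_sum, hb, mul_one]
    have e2 : ∑ l : Box n K, ((∑ j, (l j : ℕ) : ℕ) : ℂ) * σB l l
        = ∑ k : Box n K, ∑ l : Box n K, ((∑ j, (l j : ℕ) : ℕ) : ℂ) * (σA k k * σB l l) := by
      rw [Finset.sum_comm]
      refine Finset.sum_congr rfl fun l _ => ?_
      rw [← Finset.mul_sum, ← Finset.sum_mul, ha, one_mul]
    rw [e1, e2, ← Finset.sum_add_distrib]
    refine Finset.sum_congr rfl fun k _ => ?_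
    rw [← Finset.sum_add_distrib]
    refine Finset.sum_congr rfl fun l _ => ?_
    ring
  have hre := congrArg Complex.re (hL.trans hR)
  have hE : energy σA + energy σB
      = (∑ k : Box n K, ((∑ j, (k j : ℕ) : ℕ) : ℂ) * σA k k
        + ∑ l : Box n K, ((∑ j, (l j : ℕ) : ℕ) : ℂ) * σB l l).re := by
    unfold energy
    rw [Complex.add_re, Complex.re_sum, Complex.re_sum]
    congr 1 <;> refine Finset.sum_congr rfl fun k _ => ?_ <;>
      rw [← Complex.ofReal_natCast, Complex.re_ofReal_mul]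
  rw [hE, ← hre, Complex.re_sum]
  unfold energy
  refine Finset.sum_le_sum fun p _ => ?_
  have hp : bsOutput η σA σB p p = ∑ q, finA_T η σA σB p q := rfl
  rw [hp, Complex.re_sum, Complex.re_sum, Finset.mul_sum]
  refine Finset.sum_le_sum fun q _ => ?_
  have h0 : 0 ≤ (finA_T η σA σB p q).re := (Complex.nonneg_iff.mp (finA_T_nonneg η hA.1 hB.1 p q)).1
  rw [← Nat.cast_add, ← Complex.ofReal_natCast, Complex.re_ofReal_mul]
  refine mul_le_mul_of_nonneg_right ?_ h0
  exact_mod_cast Nat.le_add_right _ _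

theorem finb_amp {n : ℕ} (η : ℝ) {a a' k e : Occ n} (h : a + a' ≠ k + e) : ampOcc η a a' k e = 0 := by
  obtain ⟨j, hj⟩ := Function.ne_iff.1 h
  exact Finset.prod_eq_zero (Finset.mem_univ j) (bsAmp_eq_zero η (Ne.symm hj))

theorem finb_split {n : ℕ} (K : ℕ) (m : Occ n) (F : Occ n → Occ n → ℂ)
    (h : ∀ a a', a + a' ≠ m ∨ (¬∀ j, a j ≤ K) ∨ (¬∀ j, a' j ≤ K) → F a a' = 0) :
    ∑ a : Splitting m, F a.fst a.snd = ∑ x : Box n K, ∑ y : Box n K, F (emb x) (emb y) := by
  have h' : ∀ a a', F a a' ≠ 0 → a + a' = m ∧ (∀ j, a j ≤ K) ∧ ∀ j, a' j ≤ K := fun a a' hF => by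
    by_contra hn
    exact hF (h a a' (by tauto))
  rw [← Fintype.sum_prod_type']
  refine Finset.sum_bij_ne_zero (fun a _ hF => (toBox K a.fst (h' _ _ hF).2.1, toBox K a.snd (h' _ _ hF).2.2))
    (fun _ _ _ => Finset.mem_univ _) (fun a _ _ b _ _ e => ?_) (fun p _ hF => ?_) fun _ _ _ => rfl
  · funext j
    exact Fin.ext (congrFun (congrArg emb (congrArg Prod.fst e)) j)
  · have h1 : ∀ j, emb p.1 j + emb p.2 j = m j := congrFun (h' _ _ hF).1
    have h2 : Splitting.snd (m := m) (fun j => ⟨emb p.1 j, by have := h1 j; omega⟩) = emb p.2 := by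
      funext j
      have := h1 j
      simp only [Splitting.snd]
      omega
    refine ⟨fun j => ⟨emb p.1 j, by have := h1 j; omega⟩, Finset.mem_univ _, by rw [h2]; exact hF, ?_⟩
    exact Prod.ext rfl (emb_injective h2)

theorem finb_blk {n K : ℕ} (η : ℝ) (σA σB : Matrix (Box n K) (Box n K) ℂ) (k l e : Occ n) :
    blk η (ext σA) (ext σB) k l e = ∑ x : Box n K, ∑ y : Box n K, ∑ x' : Box n K, ∑ y' : Box n K,
      (ampOcc η (emb x) (emb y) k e : ℂ) * σA x x' * σB y y' * (ampOcc η (emb x') (emb y') l e : ℂ) := by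
  rw [blk, finb_split K (k + e) (fun a a' => ∑ b : Splitting (l + e), (ampOcc η a a' k e : ℂ) * ext σA a b.fst *
    ext σB a' b.snd * (ampOcc η b.fst b.snd l e : ℂ))]
  · refine Finset.sum_congr rfl fun x _ => Finset.sum_congr rfl fun y _ => ?_
    rw [finb_split K (l + e) (fun b b' => (ampOcc η (emb x) (emb y) k e : ℂ) * ext σA (emb x) b *
      ext σB (emb y) b' * (ampOcc η b b' l e : ℂ))]
    · simp only [ext_emb]
    · rintro b b' (h | h | h)
      · rw [finb_amp η h, Complex.ofReal_zero, mul_zero]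
      · rw [ext_of_not σA fun h' => h h'.2, mul_zero, zero_mul, zero_mul]
      · rw [ext_of_not σB fun h' => h h'.2, mul_zero, zero_mul]
  · rintro a a' (h | h | h) <;> refine Finset.sum_eq_zero fun b _ => ?_
    · rw [finb_amp η h, Complex.ofReal_zero, zero_mul, zero_mul, zero_mul]
    · rw [ext_of_not σA fun h' => h h'.1, mul_zero, zero_mul, zero_mul]
    · rw [ext_of_not σB fun h' => h h'.1, mul_zero, zero_mul]

theorem finb_out {n K : ℕ} (η : ℝ) (x y : Box n K) {k e : Occ n}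
    (h : (¬∀ j, k j ≤ 2 * K) ∨ ¬∀ j, e j ≤ 2 * K) : ampOcc η (emb x) (emb y) k e = 0 := by
  refine finb_amp η fun h' => ?_
  have h1 : ∀ j, k j + e j ≤ 2 * K := fun j => by
    have h2 : emb x j + emb y j = k j + e j := congrFun h' j
    have := emb_le x j
    have := emb_le y j
    omega
  rcases h with h | h <;> exact h fun j => by have := h1 j; omega

/-- The finite-dimensional output is the sum of the blocks of the extended kernels. -/
theorem hasSum_blk_ext {n K : ℕ} (η : ℝ) (σA σB : Matrix (Box n K) (Box n K) ℂ) (k l : Occ n) :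
    HasSum (fun e => blk η (ext σA) (ext σB) k l e) (ext (M := 2 * K) (bsOutput η σA σB) k l) := by
  simp only [finb_blk]
  by_cases h : (∀ j, k j ≤ 2 * K) ∧ ∀ j, l j ≤ 2 * K
  · rw [ext, dif_pos h]
    refine ((emb_injective (M := 2 * K)).hasSum_iff fun e he => ?_).1 (hasSum_fintype _)
    have : ¬∀ j, e j ≤ 2 * K := fun h' => he ⟨toBox _ e h', rfl⟩
    simp [finb_out η _ _ (Or.inr this)]
  · rw [ext_of_not _ h]
    rcases not_and_or.1 h with h | h <;> simp [finb_out η _ _ (Or.inl h), hasSum_zero]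

end Crest.Agent.R331.Out
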