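import Crest.Agent.R331.Out.Trunc
import Crest.Agent.R331.Out.Blk
import Crest.Agent.R331.Out.Fin

/-!
# Row 331, block Out: the output state and the convergence of the truncated outputs
-/

set_option autoImplicit false

namespace Crest.Agent.R331.Out

open Crest.MathPhysics.Bosonic Crest.Quantum Filter Topology
open scoped ComplexOrder

/-- The truncated outputs are eventually density matrices of bounded energy. -/
theorem out_trunc_bound {n : ℕ} {η : ℝ} (hη : η ∈ Set.Icc (0 : ℝ) 1) (ρA ρB : FockState n)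
    (hA : FiniteEnergy ρA) (hB : FiniteEnergy ρB) :
    ∃ R : ℝ, ∀ᶠ K in atTop, IsDensity (bsOutput η (trunc K ρA) (trunc K ρB)) ∧
      energy (M := 2 * K) (bsOutput η (trunc K ρA) (trunc K ρB)) ≤ R := by
  obtain ⟨RA, hRA⟩ := trunc_energy ρA hA
  obtain ⟨RB, hRB⟩ := trunc_energy ρB hB
  refine ⟨RA + RB, ?_⟩
  filter_upwards [hRA, hRB, trunc_density ρA, trunc_density ρB] with K h1 h2 h3 h4
  exact ⟨bsOutput_density hη h3 h4, (bsOutput_energy hη h3 h4).trans (add_le_add h1 h2)⟩

/-- The output state exists, has finite energy and is the entrywise limit of the outputs of the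
truncated inputs. -/
theorem exists_out {n : ℕ} {η : ℝ} (hη : η ∈ Set.Icc (0 : ℝ) 1) (ρA ρB : FockState n)
    (hA : FiniteEnergy ρA) (hB : FiniteEnergy ρB) :
    ∃ ρC : FockState n, IsBeamSplitterOutput η ρA ρB ρC ∧ FiniteEnergy ρC ∧
      ∀ k l, Tendsto (fun K => ext (M := 2 * K) (bsOutput η (trunc K ρA) (trunc K ρB)) k l) atTop
        (𝓝 (entry ρC.op k l)) := by
  have hs : ∀ k l : Occ n, Summable fun e => pm (entry ρA.op) (entry ρB.op) (k + e) +
      pm (entry ρA.op) (entry ρB.op) (l + e) := fun k l =>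
    ((summable_pm ρA ρB).comp_injective (add_right_injective k)).add
      ((summable_pm ρA ρB).comp_injective (add_right_injective l))
  have hs' : ∀ k l : Occ n, Summable fun e => blk η (entry ρA.op) (entry ρB.op) k l e := fun k l =>
    Summable.of_norm_bounded ((hs k l).div_const 2)
      fun e => norm_blk_le hη (kpsd_entry ρA) (kpsd_entry ρB) k l e
  have hc : ∀ k l, Tendsto (fun K => ext (M := 2 * K) (bsOutput η (trunc K ρA) (trunc K ρB)) k l) atTop
      (𝓝 (∑' e, blk η (entry ρA.op) (entry ρB.op) k l e)) := by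
    intro k l
    simp only [← (hasSum_blk_ext η _ _ k l).tsum_eq]
    refine tendsto_tsum_of_dominated_convergence ((hs k l).mul_left 2) (fun e => ?_) ?_
    · unfold blk
      refine tendsto_finset_sum _ fun a _ => tendsto_finset_sum _ fun b _ => ?_
      exact (((trunc_entries ρA _ _).const_mul _).mul (trunc_entries ρB _ _)).mul_const _
    · filter_upwards [trunc_density ρA, trunc_density ρB, trunc_diag_le ρA, trunc_diag_le ρB] with K h1 h2 h3 h4 e
      have hp : ∀ m, pm (ext (trunc K ρA)) (ext (trunc K ρB)) m ≤ 4 * pm (entry ρA.op) (entry ρB.op) m := by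
        intro m
        unfold pm
        rw [Finset.mul_sum]
        refine Finset.sum_le_sum fun a _ => ?_
        refine (mul_le_mul (h3 _) (h4 _) ((kpsd_ext h2.1).diag_nonneg _)
          (mul_nonneg zero_le_two ((kpsd_entry ρA).diag_nonneg _))).trans_eq (by ring)
      refine (norm_blk_le hη (kpsd_ext h1.1) (kpsd_ext h2.1) k l e).trans ?_
      linarith [hp (k + e), hp (l + e)]
  obtain ⟨R, hR⟩ := out_trunc_bound hη ρA ρB hA hB
  obtain ⟨ρC, h1, h2⟩ := state_of_limit (fun K => 2 * K) (fun K => bsOutput η (trunc K ρA) (trunc K ρB)) R hR _ hc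
  refine ⟨ρC, fun k l => ?_, h2, fun k l => ?_⟩
  · rw [h1]
    exact (hs' k l).hasSum
  · rw [h1]
    exact hc k l

end Crest.Agent.R331.Out
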