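import Crest.Agent.R331.FD

/-!
# Row 331, block Out: truncations of Fock states, kernels, output blocks (definitions)
-/

set_option autoImplicit false

namespace Crest.Agent.R331.Out

open Crest.MathPhysics.Bosonic Crest.Quantum
open scoped ComplexOrder

/-- A box index as an occupation tuple. -/
def emb {n M : ℕ} (k : Box n M) : Occ n := fun j => (k j : ℕ)

/-- An occupation tuple inside the box as a box index. -/
def toBox {n : ℕ} (M : ℕ) (k : Occ n) (h : ∀ j, k j ≤ M) : Box n M :=
  fun j => ⟨k j, Nat.lt_succ_of_le (h j)⟩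

/-- A matrix on a box, extended by zero to a kernel on all occupation tuples. -/
noncomputable def ext {n M : ℕ} (σ : Matrix (Box n M) (Box n M) ℂ) (k l : Occ n) : ℂ :=
  if h : (∀ j, k j ≤ M) ∧ (∀ j, l j ≤ M) then σ (toBox M k h.1) (toBox M l h.2) else 0

/-- The mean photon number of a matrix on a box. -/
noncomputable def energy {n M : ℕ} (σ : Matrix (Box n M) (Box n M) ℂ) : ℝ :=
  ∑ k : Box n M, ((∑ j, (k j : ℕ) : ℕ) : ℝ) * (σ k k).re

/-- The compression of a Fock state to a box. -/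
noncomputable def comp {n : ℕ} (K : ℕ) (ρ : FockState n) : Matrix (Box n K) (Box n K) ℂ :=
  Matrix.of fun k l => entry ρ.op (emb k) (emb l)

/-- The mass of a Fock state inside a box. -/
noncomputable def mass {n : ℕ} (K : ℕ) (ρ : FockState n) : ℝ :=
  ∑ k : Box n K, (entry ρ.op (emb k) (emb k)).re

/-- The normalised compression of a Fock state to a box. -/
noncomputable def trunc {n : ℕ} (K : ℕ) (ρ : FockState n) : Matrix (Box n K) (Box n K) ℂ :=
  (((mass K ρ)⁻¹ : ℝ) : ℂ) • comp K ρ

/-- Positive semidefinite kernels on occupation tuples. -/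
def KPsd {n : ℕ} (c : Occ n → Occ n → ℂ) : Prop :=
  ∀ (s : Finset (Occ n)) (x : Occ n → ℂ),
    0 ≤ ∑ k ∈ s, ∑ l ∈ s, (starRingEnd ℂ) (x k) * c k l * x l

/-- The output block at discarded occupation `e`, for arbitrary input kernels
(`outBlock η ρA ρB = blk η (entry ρA.op) (entry ρB.op)` by `rfl`). -/
noncomputable def blk {n : ℕ} (η : ℝ) (cA cB : Occ n → Occ n → ℂ) (k l e : Occ n) : ℂ :=
  ∑ a : Splitting (k + e), ∑ b : Splitting (l + e),
    (ampOcc η a.fst a.snd k e : ℂ) * cA a.fst b.fst * cB a.snd b.snd *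
      (ampOcc η b.fst b.snd l e : ℂ)

theorem outBlock_eq {n : ℕ} (η : ℝ) (ρA ρB : FockState n) (k l e : Occ n) :
    outBlock η ρA ρB k l e = blk η (entry ρA.op) (entry ρB.op) k l e := rfl

/-- The law of the total occupation `a + a'` of two independent inputs. -/
noncomputable def pm {n : ℕ} (cA cB : Occ n → Occ n → ℂ) (m : Occ n) : ℝ :=
  ∑ a : Splitting m, (cA a.fst a.fst).re * (cB a.snd a.snd).re

@[simp] theorem emb_toBox {n : ℕ} (M : ℕ) (k : Occ n) (h : ∀ j, k j ≤ M) :
    emb (toBox M k h) = k := rfl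

theorem emb_le {n M : ℕ} (k : Box n M) (j : Fin n) : emb k j ≤ M := Nat.le_of_lt_succ (k j).2

@[simp] theorem toBox_emb {n M : ℕ} (k : Box n M) (h : ∀ j, emb k j ≤ M) :
    toBox M (emb k) h = k := rfl

theorem emb_injective {n M : ℕ} : Function.Injective (emb : Box n M → Occ n) := by
  intro k l h
  funext j
  exact Fin.ext (congrFun h j)

@[simp] theorem ext_emb {n M : ℕ} (σ : Matrix (Box n M) (Box n M) ℂ) (k l : Box n M) :
    ext σ (emb k) (emb l) = σ k l := by
  unfold ext
  rw [dif_pos ⟨emb_le k, emb_le l⟩]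
  rfl

theorem ext_of_not {n M : ℕ} (σ : Matrix (Box n M) (Box n M) ℂ) {k l : Occ n}
    (h : ¬ ((∀ j, k j ≤ M) ∧ (∀ j, l j ≤ M))) : ext σ k l = 0 := by
  unfold ext
  rw [dif_neg h]

end Crest.Agent.R331.Out
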