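import Crest.Agent.R331.Out.Kernel

/-!
# Row 331, block Out: normalised truncations of a Fock state
-/

set_option autoImplicit false

namespace Crest.Agent.R331.Out

open Crest.MathPhysics.Bosonic Crest.Quantum Filter Topology
open scoped ComplexOrder

theorem tr_sum {n K : ℕ} (f : Occ n → ℝ) :
    ∑ k : Box n K, f (emb k) = ∑ k ∈ (Finset.univ : Finset (Box n K)).image emb, f k :=
  (Finset.sum_image fun _ _ _ _ h => emb_injective h).symm

theorem tr_ev {n : ℕ} (k : Occ n) : ∀ᶠ K in atTop, ∀ j, k j ≤ K :=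
  eventually_all.2 fun j => eventually_ge_atTop (k j)

theorem tr_tendsto {n : ℕ} :
    Tendsto (fun K => (Finset.univ : Finset (Box n K)).image emb) atTop atTop := by
  refine tendsto_atTop.2 fun s => ?_
  filter_upwards [(eventually_all_finset s).2 fun k _ => tr_ev k] with K hK k hk
  exact Finset.mem_image.2 ⟨toBox K k (hK k hk), Finset.mem_univ _, rfl⟩

theorem tendsto_mass {n : ℕ} (ρ : FockState n) : Tendsto (fun K => mass K ρ) atTop (𝓝 1) := by
  have h : Tendsto (fun s : Finset (Occ n) => ∑ k ∈ s, (entry ρ.op k k).re) atTop (𝓝 1) := ρ.traceOne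
  refine (h.comp tr_tendsto).congr fun K => ?_
  exact (tr_sum fun k => (entry ρ.op k k).re).symm

theorem tr_half {n : ℕ} (ρ : FockState n) : ∀ᶠ K in atTop, 1 / 2 < mass K ρ :=
  (tendsto_mass ρ).eventually (lt_mem_nhds (by norm_num))

theorem trunc_density {n : ℕ} (ρ : FockState n) : ∀ᶠ K in atTop, IsDensity (trunc K ρ) := by
  filter_upwards [tr_half ρ] with K hK
  have h0 : 0 < mass K ρ := by linarith
  have hp : (comp K ρ).PosSemidef := (kpsd_entry ρ).posSemidef K
  refine ⟨hp.smul (by exact_mod_cast (inv_pos.2 h0).le), ?_⟩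
  have ht : (comp K ρ).trace = (mass K ρ : ℂ) := by
    rw [mass, Complex.ofReal_sum, Matrix.trace]
    refine Finset.sum_congr rfl fun k _ => ?_
    have h1 : (0 : ℂ) ≤ comp K ρ k k := hp.diag_nonneg
    exact Complex.ext (by simp [comp]) (by simpa using (Complex.nonneg_iff.1 h1).2.symm)
  rw [trunc, Matrix.trace_smul, ht, smul_eq_mul, ← Complex.ofReal_mul, inv_mul_cancel₀ h0.ne', Complex.ofReal_one]

theorem tr_ext {n K : ℕ} (ρ : FockState n) {k l : Occ n} (hk : ∀ j, k j ≤ K) (hl : ∀ j, l j ≤ K) :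
    ext (trunc K ρ) k l = (((mass K ρ)⁻¹ : ℝ) : ℂ) * entry ρ.op k l := by
  unfold ext
  rw [dif_pos ⟨hk, hl⟩]
  rfl

theorem trunc_entries {n : ℕ} (ρ : FockState n) (k l : Occ n) :
    Tendsto (fun K => ext (trunc K ρ) k l) atTop (𝓝 (entry ρ.op k l)) := by
  have h := ((Complex.continuous_ofReal.tendsto _).comp ((tendsto_mass ρ).inv₀ one_ne_zero)).mul_const
    (entry ρ.op k l)
  rw [inv_one, Complex.ofReal_one, one_mul] at h
  refine h.congr' ?_
  filter_upwards [tr_ev k, tr_ev l] with K hk hl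
  rw [tr_ext ρ hk hl]
  rfl

/-- The diagonal of the truncation is eventually at most twice the diagonal of the state. -/
theorem trunc_diag_le {n : ℕ} (ρ : FockState n) :
    ∀ᶠ K in atTop, ∀ k, (ext (trunc K ρ) k k).re ≤ 2 * (entry ρ.op k k).re := by
  filter_upwards [tr_half ρ] with K hK k
  have h0 := (kpsd_entry ρ).diag_nonneg k
  by_cases hk : ∀ j, k j ≤ K
  · rw [tr_ext ρ hk hk, Complex.re_ofReal_mul]
    refine mul_le_mul_of_nonneg_right ?_ h0
    rw [inv_le_comm₀ (by linarith) two_pos]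
    linarith
  · rw [ext_of_not _ fun h => hk h.1, Complex.zero_re]
    linarith

theorem trunc_energy {n : ℕ} (ρ : FockState n) (h : FiniteEnergy ρ) :
    ∃ R : ℝ, ∀ᶠ K in atTop, energy (trunc K ρ) ≤ R := by
  refine ⟨2 * ∑' k : Occ n, ((∑ j, k j : ℕ) : ℝ) * (entry ρ.op k k).re, ?_⟩
  filter_upwards [trunc_diag_le ρ] with K hK
  have h1 : ∑ k : Box n K, ((∑ j, emb k j : ℕ) : ℝ) * (entry ρ.op (emb k) (emb k)).re ≤
      ∑' k : Occ n, ((∑ j, k j : ℕ) : ℝ) * (entry ρ.op k k).re := by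
    rw [tr_sum fun k => ((∑ j, k j : ℕ) : ℝ) * (entry ρ.op k k).re]
    exact h.sum_le_tsum _ fun k _ => mul_nonneg (Nat.cast_nonneg _) ((kpsd_entry ρ).diag_nonneg k)
  refine le_trans ?_ (mul_le_mul_of_nonneg_left h1 zero_le_two)
  rw [energy, Finset.mul_sum]
  refine Finset.sum_le_sum fun k _ => ?_
  have h2 := hK (emb k)
  rw [ext_emb] at h2
  rw [mul_left_comm]
  exact mul_le_mul_of_nonneg_left h2 (Nat.cast_nonneg _)

end Crest.Agent.R331.Out
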